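import Vale.Agent.P146.Main

namespace Vale.Agent.Results.P146.PowerSaving

open ProbabilityTheory Vale.Agent.P146

theorem result (β : ℝ) (hβ : 0 < β) : ∃ C : ℝ, ∀ n : ℕ, 1 ≤ n →
    Var[FE n β; PG n] ≤ C * (n : ℝ) ^ (1 - 1 / 840 : ℝ) := fin β hβ

end Vale.Agent.Results.P146.PowerSaving
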